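import Vale.Agent.Lib.P154.TreeGW

/-!
The corner `lam = 1` on Poisson trees: the spins are copied along the edges, so the observer learns
the root spin exactly when the tree reaches the bottom level, and a Poisson tree with mean at most one
dies out.
-/

noncomputable section

open Finset Filter Topology

namespace Vale.Agent.Lib.P154One

open Vale.Agent.Lib.P154

/-- One when no vertex of the truncated tree reaches the bottom level, zero otherwise. -/
def dead : (n : ℕ) → GWTree n → ℝ
  | 0, _ => 0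
  | n + 1, T => ∏ c : Fin T.1, dead n (T.2 c)

theorem dead_cases : ∀ (n : ℕ) (T : GWTree n), dead n T = 0 ∨ dead n T = 1
  | 0, _ => Or.inl rfl
  | n + 1, T => by
    by_cases h : ∃ c, dead n (T.2 c) = 0
    · obtain ⟨c, hc⟩ := h
      left
      exact Finset.prod_eq_zero (mem_univ c) hc
    · right
      push_neg at h
      refine Finset.prod_eq_one fun c _ => ?_
      exact (dead_cases n (T.2 c)).resolve_left (h c)

theorem dead_bounds (n : ℕ) (T : GWTree n) : 0 ≤ dead n T ∧ dead n T ≤ 1 := by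
  rcases dead_cases n T with h | h <;> rw [h] <;> norm_num

theorem sum_potts_one (q : ℕ) (i : Fin q) (L : Fin q → ℝ) : ∑ j, potts q 1 i j * L j = L i := by
  simp [potts]

theorem lik_succ (q n : ℕ) (T : GWTree (n + 1)) (i : Fin q) (τ : GWSpins q (n + 1) T) :
    gwLik q 1 (n + 1) T i τ = ∏ c : Fin T.1, gwLik q 1 n (T.2 c) i (τ c) := by
  change ∏ c : Fin T.1, ∑ j : Fin q, potts q 1 i j * gwLik q 1 n (T.2 c) j (τ c) = _
  refine Finset.prod_congr rfl fun c _ => ?_
  rw [sum_potts_one]

theorem lik_of_dead (q : ℕ) : ∀ (n : ℕ) (T : GWTree n), dead n T = 1 →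
    ∀ (i : Fin q) (τ : GWSpins q n T), gwLik q 1 n T i τ = 1
  | 0, T, h, _, _ => by
    have : dead 0 T = 0 := rfl
    rw [this] at h
    norm_num at h
  | n + 1, T, h, i, τ => by
    rw [lik_succ]
    refine Finset.prod_eq_one fun c _ => lik_of_dead q n (T.2 c) ?_ i (τ c)
    rcases dead_cases n (T.2 c) with h0 | h1
    · exfalso
      have h2 : dead (n + 1) T = 0 := Finset.prod_eq_zero (mem_univ c) h0
      rw [h2] at h
      norm_num at h
    · exact h1

theorem lik_nonneg (q : ℕ) : ∀ (n : ℕ) (T : GWTree n) (i : Fin q) (τ : GWSpins q n T), 0 ≤ gwLik q 1 n T i τ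
  | 0, _, i, τ => by
    change 0 ≤ (if i = gwSpinAtZero τ then (1 : ℝ) else 0)
    split_ifs <;> norm_num
  | n + 1, T, i, τ => by
    rw [lik_succ]
    exact Finset.prod_nonneg fun c _ => lik_nonneg q n (T.2 c) i (τ c)

theorem lik_sum (q : ℕ) : ∀ (n : ℕ) (T : GWTree n) (i : Fin q), ∑ τ : GWSpins q n T, gwLik q 1 n T i τ = 1
  | 0, _, i => by
    change ∑ t : Fin q, (if i = t then (1 : ℝ) else 0) = 1
    simp
  | n + 1, T, i => by
    have h : ∏ c : Fin T.1, ∑ σ : GWSpins q n (T.2 c), gwLik q 1 n (T.2 c) i σ = 1 :=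
      Finset.prod_eq_one fun c _ => lik_sum q n (T.2 c) i
    rw [Finset.prod_univ_sum, Fintype.piFinset_univ] at h
    refine Eq.trans ?_ h
    exact Finset.sum_congr rfl fun τ _ => lik_succ q n T i τ

theorem prob_nonneg (q n : ℕ) (T : GWTree n) (τ : GWSpins q n T) : 0 ≤ gwProb q 1 n T τ := by
  unfold gwProb
  exact Finset.sum_nonneg fun i _ => mul_nonneg (by positivity) (lik_nonneg q n T i τ)

theorem adv_nonneg (q n : ℕ) (T : GWTree n) : 0 ≤ gwTreeAdvantage q 1 n T := by
  unfold gwTreeAdvantage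
  refine Finset.sum_nonneg fun τ _ => mul_nonneg (prob_nonneg q n T τ) ?_
  exact mul_nonneg (by norm_num) (Finset.sum_nonneg fun i _ => abs_nonneg _)

theorem prob_sum {q : ℕ} (hq : 0 < q) (n : ℕ) (T : GWTree n) : ∑ τ : GWSpins q n T, gwProb q 1 n T τ = 1 := by
  unfold gwProb
  rw [Finset.sum_comm]
  have hq' : (q : ℝ) ≠ 0 := by positivity
  simp only [← Finset.mul_sum, lik_sum]
  simp
  field_simp

theorem term_le {q : ℕ} (hq : 0 < q) (n : ℕ) (T : GWTree n) (τ : GWSpins q n T) :
    gwProb q 1 n T τ * ((1 / 2) * ∑ i : Fin q, |gwPost q 1 n T i τ - 1 / (q : ℝ)|) ≤ gwProb q 1 n T τ := by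
  have hP := prob_nonneg q n T τ
  rcases hP.eq_or_lt with h0 | hpos
  · rw [← h0]
    norm_num
  have hq' : (0 : ℝ) < q := by positivity
  have hpost : ∀ i : Fin q, 0 ≤ gwPost q 1 n T i τ := fun i => by
    unfold gwPost
    exact div_nonneg (mul_nonneg (by positivity) (lik_nonneg q n T i τ)) hP
  have hsum : ∑ i : Fin q, gwPost q 1 n T i τ = 1 := by
    unfold gwPost
    rw [← Finset.sum_div]
    exact div_self hpos.ne'
  have habs : ∀ i : Fin q, |gwPost q 1 n T i τ - 1 / (q : ℝ)| ≤ gwPost q 1 n T i τ + 1 / (q : ℝ) := fun i => by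
    rw [abs_le]
    have h1 := hpost i
    have h2 : 0 < 1 / (q : ℝ) := by positivity
    constructor <;> linarith
  have hle : ∑ i : Fin q, |gwPost q 1 n T i τ - 1 / (q : ℝ)| ≤ 2 := by
    refine (Finset.sum_le_sum fun i _ => habs i).trans ?_
    rw [Finset.sum_add_distrib, hsum]
    simp
    have : (q : ℝ) * (q : ℝ)⁻¹ = 1 := mul_inv_cancel₀ hq'.ne'
    linarith
  have : (1 / 2) * ∑ i : Fin q, |gwPost q 1 n T i τ - 1 / (q : ℝ)| ≤ 1 := by linarith
  calc _ ≤ gwProb q 1 n T τ * 1 := mul_le_mul_of_nonneg_left this hP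
    _ = _ := mul_one _

theorem adv_le_one {q : ℕ} (hq : 0 < q) (n : ℕ) (T : GWTree n) : gwTreeAdvantage q 1 n T ≤ 1 := by
  unfold gwTreeAdvantage
  exact (Finset.sum_le_sum fun τ _ => term_le hq n T τ).trans_eq (prob_sum hq n T)

theorem adv_of_dead {q : ℕ} (hq : 0 < q) {n : ℕ} {T : GWTree n} (h : dead n T = 1) :
    gwTreeAdvantage q 1 n T = 0 := by
  unfold gwTreeAdvantage
  refine Finset.sum_eq_zero fun τ _ => ?_
  have hq' : (q : ℝ) ≠ 0 := by positivity
  have hp : gwProb q 1 n T τ = 1 := by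
    unfold gwProb
    simp only [lik_of_dead q n T h]
    simp
    field_simp
  have hpost : ∀ i : Fin q, gwPost q 1 n T i τ = 1 / (q : ℝ) := fun i => by
    unfold gwPost
    rw [hp, lik_of_dead q n T h]
    simp
  simp [hpost]

theorem adv_le {q : ℕ} (hq : 0 < q) (n : ℕ) (T : GWTree n) : gwTreeAdvantage q 1 n T ≤ 1 - dead n T := by
  rcases dead_cases n T with h | h
  · rw [h, sub_zero]
    exact adv_le_one hq n T
  · rw [adv_of_dead hq h, h]
    norm_num

theorem bdd_adv {q : ℕ} (hq : 0 < q) (n : ℕ) : BddF (fun T : GWTree n => gwTreeAdvantage q 1 n T) :=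
  BddF.of_Icc (a := 0) (b := 1) fun T => ⟨adv_nonneg q n T, adv_le_one hq n T⟩

theorem bdd_dead (n : ℕ) : BddF (dead n) :=
  BddF.of_Icc (a := 0) (b := 1) fun T => dead_bounds n T

/-- The probability that the tree does not reach the bottom level. -/
def extProb (p : ℕ → ℝ) (n : ℕ) : ℝ := Ew (gwWeight p n) (dead n)

theorem Ew_pow_prod {X : Type} {w : X → ℝ} (hw : WProb w) {f : X → ℝ} (hf : ∀ x, 0 ≤ f x ∧ f x ≤ 1) (k : ℕ) :
    Ew (wPow w k) (fun ts => ∏ c, f (ts c)) = (Ew w f) ^ k := by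
  have hb : BddF f := BddF.of_Icc (a := 0) (b := 1) hf
  induction k with
  | zero =>
    have : (fun ts : Fin 0 → X => ∏ c, f (ts c)) = fun _ => 1 := by
      funext ts
      simp
    rw [this, Ew_const (hw.pow 0)]
    simp
  | succ k ih =>
    have hg : BddF (fun ts : Fin k → X => ∏ c, f (ts c)) :=
      BddF.of_Icc (a := 0) (b := 1) fun ts =>
        ⟨Finset.prod_nonneg fun c _ => (hf _).1, Finset.prod_le_one (fun c _ => (hf _).1) fun c _ => (hf _).2⟩
    rw [Ew_pow_succ]
    have e : (fun p : X × (Fin k → X) => ∏ c, f ((Fin.consEquiv (fun _ : Fin (k + 1) => X) p) c))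
        = fun p => f p.1 * ∏ c, f (p.2 c) := by
      funext p
      rw [Fin.prod_univ_succ]
      rfl
    rw [e, Ew_prod_mul hw (hw.pow k) hb hg, ih, pow_succ]
    ring

theorem extProb_succ {p : ℕ → ℝ} (hp : WProb p) (n : ℕ) :
    extProb p (n + 1) = ∑' k, p k * (extProb p n) ^ k := by
  have hw := gwWeight_wprob hp n
  have h := Ew_mix hp hw (F := fun T : GWTree (n + 1) => dead (n + 1) T) (bdd_dead (n + 1))
  refine Eq.trans h ?_
  congr 1
  funext k
  congr 1
  exact Ew_pow_prod hw (fun T => dead_bounds n T) k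

theorem poisson_pgf {d : ℝ} (x : ℝ) : ∑' k, poissonLaw d k * x ^ k = Real.exp (-d) * Real.exp (d * x) := by
  have h := NormedSpace.expSeries_div_hasSum_exp (𝔸 := ℝ) (d * x)
  rw [← Real.exp_eq_exp_ℝ] at h
  have h2 := h.mul_left (Real.exp (-d))
  have e : (fun k => poissonLaw d k * x ^ k) = fun k => Real.exp (-d) * ((d * x) ^ k / (k.factorial : ℝ)) := by
    funext k
    unfold poissonLaw
    rw [mul_pow]
    ring
  rw [e]
  exact h2.tsum_eq

/-- A tree of mean at most one dies out: the scalar recursion. -/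
theorem scalar_tendsto {d : ℝ} (hd : 0 < d) (hd1 : d ≤ 1) {y : ℕ → ℝ} (h0 : y 0 = 1)
    (hs : ∀ n, y (n + 1) = 1 - Real.exp (-(d * y n))) : Tendsto y atTop (𝓝 0) := by
  have hnn : ∀ n, 0 ≤ y n := by
    intro n
    induction n with
    | zero => rw [h0]; norm_num
    | succ n ih =>
      rw [hs]
      have : Real.exp (-(d * y n)) ≤ 1 := Real.exp_le_one_iff.2 (by have := mul_nonneg hd.le ih; linarith)
      linarith
  have hstep : ∀ n, y (n + 1) ≤ y n := by
    intro n
    rw [hs]
    have h1 := Real.add_one_le_exp (-(d * y n))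
    have h2 : d * y n ≤ y n := by
      have := mul_le_mul_of_nonneg_right hd1 (hnn n)
      linarith
    linarith
  have hanti : Antitone y := antitone_nat_of_succ_le hstep
  have hbdd : BddBelow (Set.range y) := ⟨0, by rintro _ ⟨n, rfl⟩; exact hnn n⟩
  have hlim := tendsto_atTop_ciInf hanti hbdd
  set L := ⨅ n, y n with hL
  have hL0 : 0 ≤ L := le_ciInf hnn
  have hlim2 : Tendsto (fun n => y (n + 1)) atTop (𝓝 L) := hlim.comp (tendsto_add_atTop_nat 1)
  have hcont : Tendsto (fun n => 1 - Real.exp (-(d * y n))) atTop (𝓝 (1 - Real.exp (-(d * L)))) := by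
    have hc : Continuous (fun x : ℝ => 1 - Real.exp (-(d * x))) := by fun_prop
    exact hc.tendsto L |>.comp hlim
  have heq : L = 1 - Real.exp (-(d * L)) := by
    refine tendsto_nhds_unique hlim2 ?_
    refine hcont.congr fun n => ?_
    rw [hs]
  have hzero : L = 0 := by
    by_contra hne
    have hpos : 0 < L := lt_of_le_of_ne hL0 (Ne.symm hne)
    have hdL : 0 < d * L := mul_pos hd hpos
    have hne2 : -(d * L) ≠ 0 := by
      intro h
      linarith
    have h1 := Real.add_one_lt_exp hne2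
    have h2 : d * L ≤ L := by
      have := mul_le_mul_of_nonneg_right hd1 hL0
      linarith
    linarith
  rw [hzero] at hlim
  exact hlim

/-- The corner `lam = 1` on Poisson trees with mean at most one. -/
theorem gwAdvantage_poisson_one {q : ℕ} (hq : 0 < q) {d : ℝ} (hd : 0 < d) (hd1 : d ≤ 1) :
    (∀ n, Summable (fun T : GWTree n => gwWeight (poissonLaw d) n T * gwTreeAdvantage q 1 n T))
      ∧ Tendsto (gwAdvantage (poissonLaw d) q 1) atTop (𝓝 0) := by
  have hp := poisson_wprob hd.le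
  refine ⟨fun n => (gwWeight_wprob hp n).summable_mul (bdd_adv hq n), ?_⟩
  have hy : Tendsto (fun n => 1 - extProb (poissonLaw d) n) atTop (𝓝 0) := by
    refine scalar_tendsto hd hd1 ?_ ?_
    · have h0 : extProb (poissonLaw d) 0 = 0 := by
        unfold extProb
        have : dead 0 = fun _ => 0 := by
          funext T
          rfl
        rw [this, Ew_const (gwWeight_wprob hp 0)]
      rw [h0, sub_zero]
    · intro n
      rw [extProb_succ hp, poisson_pgf, ← Real.exp_add]
      congr 2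
      ring
  refine squeeze_zero (fun n => ?_) (fun n => ?_) hy
  · exact tsum_nonneg fun T => mul_nonneg ((gwWeight_wprob hp n).nonneg T) (adv_nonneg q n T)
  · have hw := gwWeight_wprob hp n
    have := Ew_mono hw (bdd_adv hq n) ((BddF.of_Icc (a := 1) (b := 1) fun _ => ⟨le_rfl, le_rfl⟩).sub (bdd_dead n))
      (fun T => adv_le hq n T)
    rw [Ew_sub hw (BddF.of_Icc (a := 1) (b := 1) fun _ => ⟨le_rfl, le_rfl⟩) (bdd_dead n), Ew_const hw] at this
    exact this

end Vale.Agent.Lib.P154One
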